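import Vale.Agent.P183.Up.Basic

/-!
# Doubling an up-set

Let `φ` be a representation of a partial order `L` on `A`, and `U` an up-set.  We take a large power
of `A`, whose coordinates come in blocks: two blocks for each `u ∈ U`, and the block `(u, c)` has one
coordinate for each pair `(x, y)` in the relation `φ u`.  The base point `p` has coordinate `x`, and
the opposite point `a` has coordinate `y`, at the coordinate `(u, c, x, y)`.  The new carrier is the
union of the facets where the coordinates of a block agree with `a`, together with an extra point.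
-/

namespace Vale.Agent.P183.Up

universe u

instance finite_setoid {A : Type} [Finite A] : Finite (Setoid A) :=
  Finite.of_injective (fun θ : Setoid A => θ.r) (fun a b h => Setoid.ext fun x y => by
    have := congrFun (congrFun h x) y
    exact iff_of_eq this)

section

variable {L : Type u} [PartialOrder L] {A : Type} (φ : L → Setoid A) (U : Set L)

/-- The coordinates. -/
abbrev Idx : Type :=
  {q : Setoid A × Bool × A × A // (∃ u ∈ U, q.1 = φ u) ∧ q.1 q.2.2.1 q.2.2.2}

variable {φ U}

/-- The base point. -/
def wpt (i : Idx φ U) : A := i.1.2.2.1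

/-- The opposite point. -/
def apt (i : Idx φ U) : A := i.1.2.2.2

/-- The facet of a block. -/
def OnFacet (z : Idx φ U → A) (θ : Setoid A) (c : Bool) : Prop :=
  ∀ i : Idx φ U, i.1.1 = θ → i.1.2.1 = c → z i = apt i

variable (φ U)

/-- The union of the facets. -/
abbrev X0 : Type := {z : Idx φ U → A // ∃ u ∈ U, ∃ c, OnFacet z (φ u) c}

/-- The new carrier. -/
abbrev XX : Type := Option (X0 φ U)

variable {φ U}

/-- The coordinates of a point of the new carrier. -/
def pr : XX φ U → Idx φ U → A
  | none => wpt
  | some x => x.1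

/-- The level of `t` in which the extra point is isolated. -/
def levF (t : L) : Setoid (XX φ U) where
  r q q' := q = q' ∨ ∃ x x' : X0 φ U, q = some x ∧ q' = some x' ∧ ∀ j, φ t (x.1 j) (x'.1 j)
  iseqv := by
    refine ⟨fun q => Or.inl rfl, ?_, ?_⟩
    · rintro q q' (h | ⟨x, x', rfl, rfl, h⟩)
      · exact Or.inl h.symm
      · exact Or.inr ⟨x', x, rfl, rfl, fun j => (φ t).symm' (h j)⟩
    · rintro q q' q'' (rfl | ⟨x, x', rfl, rfl, h⟩) h2
      · exact h2
      · rcases h2 with rfl | ⟨y, y', hy, rfl, h2⟩
        · exact Or.inr ⟨x, x', rfl, rfl, h⟩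
        · have : x' = y := Option.some.inj hy
          subst this
          exact Or.inr ⟨x, y', rfl, rfl, fun j => (φ t).trans' (h j) (h2 j)⟩

/-- The level of `t` in which the extra point is not isolated. -/
def levT (t : L) : Setoid (XX φ U) where
  r q q' := ∀ j, φ t (pr q j) (pr q' j)
  iseqv := ⟨fun q j => (φ t).refl' _, fun h j => (φ t).symm' (h j),
    fun h h' j => (φ t).trans' (h j) (h' j)⟩

variable (φ U) in
/-- The levels on the new carrier. -/
def lev (p : {p : L × Bool // p.2 = true → p.1 ∈ U}) : Setoid (XX φ U) :=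
  match p.1.2 with
  | false => levF p.1.1
  | true => levT p.1.1

section lines

variable {z0 : Idx φ U → A} {i : Idx φ U}

open Classical in
/-- Points of a line. -/
noncomputable def line (z0 : Idx φ U → A) (i : Idx φ U) (y : A) : Idx φ U → A :=
  Function.update z0 i y

theorem line_apply_self (y : A) : line z0 i y i = y := by
  classical
  simp [line]

theorem line_apply_ne {j : Idx φ U} (h : j ≠ i) (y : A) : line z0 i y j = z0 j := by
  classical
  simp [line, Function.update_of_ne h]

/-- A line in a direction off a facet lies in the facet. -/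
theorem line_onFacet {θ : Setoid A} {c : Bool} (h : OnFacet z0 θ c)
    (hi : ¬ (i.1.1 = θ ∧ i.1.2.1 = c)) (y : A) : OnFacet (line z0 i y) θ c := by
  intro j h1 h2
  have hne : j ≠ i := by
    rintro rfl
    exact hi ⟨h1, h2⟩
  rw [line_apply_ne hne]
  exact h j h1 h2

/-- A map onto a line. -/
noncomputable def lineMap {u : L} (hu : u ∈ U) {c : Bool} (h : OnFacet z0 (φ u) c)
    (hi : ¬ (i.1.1 = φ u ∧ i.1.2.1 = c)) (g : A → A) (j : Idx φ U) : XX φ U → XX φ U :=
  fun q => some ⟨line z0 i (g (pr q j)), u, hu, c, line_onFacet h hi _⟩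

theorem line_rel {t : L} {y y' : A} (hy : φ t y y') (j : Idx φ U) :
    φ t (line z0 i y j) (line z0 i y' j) := by
  by_cases hj : j = i
  · subst hj
    rw [line_apply_self, line_apply_self]
    exact hy
  · rw [line_apply_ne hj, line_apply_ne hj]

theorem lineMap_isMor {u : L} (hu : u ∈ U) {c : Bool} (h : OnFacet z0 (φ u) c)
    (hi : ¬ (i.1.1 = φ u ∧ i.1.2.1 = c)) {g : A → A} (hg : IsMor φ g) (j : Idx φ U) :
    IsMor (lev φ U) (lineMap hu h hi g j) := by
  rintro ⟨⟨t, b⟩, hp⟩ q q' hq
  have hcoord : φ t (pr q j) (pr q' j) := by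
    cases b with
    | false =>
      change levF t q q' at hq
      rcases hq with rfl | ⟨x, x', rfl, rfl, h'⟩
      · exact (φ t).refl' _
      · exact h' j
    | true =>
      change levT t q q' at hq
      exact hq j
  have hg' := hg t _ _ hcoord
  cases b with
  | false =>
    change levF t _ _
    exact Or.inr ⟨_, _, rfl, rfl, fun l => line_rel hg' l⟩
  | true =>
    change levT t _ _
    exact fun l => line_rel hg' l

end lines

section closed

variable (hφ : ∀ s t : L, φ s ≤ φ t ↔ s ≤ t)
  (hcl : ∀ θ : Setoid A, IsClosed φ θ → ∃ t : L, θ = φ t)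

include hφ hcl in
/-- There is a least level containing a given set of pairs. -/
theorem exists_least (S : Set (A × A)) :
    ∃ T : L, (∀ p ∈ S, φ T p.1 p.2) ∧ ∀ t : L, (∀ p ∈ S, φ t p.1 p.2) → T ≤ t := by
  let Θ : Setoid A :=
    { r := fun a b => ∀ t : L, (∀ p ∈ S, φ t p.1 p.2) → φ t a b
      iseqv := ⟨fun a t _ => (φ t).refl' a, fun h t ht => (φ t).symm' (h t ht),
        fun h h' t ht => (φ t).trans' (h t ht) (h' t ht)⟩ }
  obtain ⟨T, hT⟩ := hcl Θ (fun f hf a b hab t ht => hf t a b (hab t ht))
  refine ⟨T, fun p hp => ?_, fun t ht => ?_⟩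
  · rw [← hT]
    exact fun t ht => ht p hp
  · rw [← hφ, ← hT]
    exact fun a b hab => hab t ht

variable {ψ : Setoid (XX φ U)} (hψ : IsClosed (lev φ U) ψ) {T : L}
  (hT1 : ∀ q q', ψ q q' → ∀ j, φ T (pr q j) (pr q' j))
  (hT2 : ∀ t : L, (∀ q q', ψ q q' → ∀ j, φ t (pr q j) (pr q' j)) → T ≤ t)

include hφ hcl hψ hT2 in
/-- On every line in a facet, the restriction of a closed setoid contains the level `T`. -/
theorem line_le {z0 : Idx φ U → A} {i : Idx φ U} {u : L} (hu : u ∈ U) {c : Bool}
    (h : OnFacet z0 (φ u) c) (hi : ¬ (i.1.1 = φ u ∧ i.1.2.1 = c)) {y y' : A} (hy : φ T y y') :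
    ψ (some ⟨line z0 i y, u, hu, c, line_onFacet h hi y⟩)
      (some ⟨line z0 i y', u, hu, c, line_onFacet h hi y'⟩) := by
  let R : Setoid A :=
    { r := fun a b => ψ (some ⟨line z0 i a, u, hu, c, line_onFacet h hi a⟩)
        (some ⟨line z0 i b, u, hu, c, line_onFacet h hi b⟩)
      iseqv := ⟨fun a => ψ.refl' _, fun hab => ψ.symm' hab, fun hab hbc => ψ.trans' hab hbc⟩ }
  have hR : IsClosed φ R := by
    intro f hf a b hab
    have := hψ _ (lineMap_isMor hu h hi hf i) _ _ hab
    simp only [lineMap, pr, line_apply_self] at this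
    exact this
  obtain ⟨s, hs⟩ := hcl R hR
  have hTs : T ≤ s := by
    refine hT2 s (fun q q' hqq' j => ?_)
    have : R (pr q j) (pr q' j) := hψ _ (lineMap_isMor hu h hi (g := id) (fun _ _ _ hxy => hxy) j)
      _ _ hqq'
    rw [hs] at this
    exact this
  have : R y y' := by
    rw [hs]
    exact (hφ T s).2 hTs hy
  exact this

include hφ hcl hψ hT2 in
/-- Two points of the same facet, related coordinatewise, are related. -/
theorem facet_move {u : L} (hu : u ∈ U) {c : Bool} {x x' : Idx φ U → A} [Finite A]
    (hx : OnFacet x (φ u) c) (hx' : OnFacet x' (φ u) c) (hxx' : ∀ j, φ T (x j) (x' j)) :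
    ψ (some ⟨x, u, hu, c, hx⟩) (some ⟨x', u, hu, c, hx'⟩) := by
  classical
  have : Finite (Idx φ U) := inferInstance
  have := Fintype.ofFinite (Idx φ U)
  let mix : Finset (Idx φ U) → Idx φ U → A := fun D j => if j ∈ D then x' j else x j
  have hmix : ∀ D, OnFacet (mix D) (φ u) c := by
    intro D j h1 h2
    simp only [mix]
    split_ifs
    · exact hx' j h1 h2
    · exact hx j h1 h2
  have key : ∀ D : Finset (Idx φ U), ψ (some ⟨x, u, hu, c, hx⟩)
      (some ⟨mix D, u, hu, c, hmix D⟩) := by
    intro D
    induction D using Finset.induction_on with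
    | empty =>
      have : mix ∅ = x := by
        funext j
        simp [mix]
      simp only [this]
      exact ψ.refl' _
    | insert i D hiD ih =>
      by_cases hi : i.1.1 = φ u ∧ i.1.2.1 = c
      · have : mix (insert i D) = mix D := by
          funext j
          simp only [mix, Finset.mem_insert]
          by_cases hj : j = i
          · subst hj
            rw [if_pos (Or.inl rfl), if_neg hiD, hx j hi.1 hi.2, hx' j hi.1 hi.2]
          · by_cases hj2 : j ∈ D
            · rw [if_pos (Or.inr hj2), if_pos hj2]
            · rw [if_neg (by tauto), if_neg hj2]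
        simp only [this]
        exact ih
      · have e1 : line (mix D) i (x i) = mix D := by
          funext j
          by_cases hj : j = i
          · subst hj
            rw [line_apply_self]
            simp [mix, hiD]
          · rw [line_apply_ne hj]
        have e2 : line (mix D) i (x' i) = mix (insert i D) := by
          funext j
          by_cases hj : j = i
          · subst hj
            rw [line_apply_self]
            simp [mix]
          · rw [line_apply_ne hj]
            simp [mix, hj]
        have h3 := line_le hφ hcl hψ hT2 hu (hmix D) hi (hxx' i)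
        simp only [e1, e2] at h3
        exact ψ.trans' ih h3
  have e : mix Finset.univ = x' := by
    funext j
    simp [mix]
  have := key Finset.univ
  simpa only [e] using this

include hφ hcl hψ hT2 in
/-- Any two points of the facets, related coordinatewise, are related. -/
theorem all_move [Finite A] (x x' : X0 φ U) (hxx' : ∀ j, φ T (x.1 j) (x'.1 j)) :
    ψ (some x) (some x') := by
  classical
  obtain ⟨z, u, hu, c, hz⟩ := x
  obtain ⟨z', v, hv, c', hz'⟩ := x'
  let B : Idx φ U → Prop := fun j => j.1.1 = φ v ∧ j.1.2.1 = c'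
  let m : Idx φ U → A := fun j => if B j then apt j else z j
  have hm1 : OnFacet m (φ u) c := by
    intro j h1 h2
    simp only [m]
    split_ifs
    · rfl
    · exact hz j h1 h2
  have hm2 : OnFacet m (φ v) c' := by
    intro j h1 h2
    simp only [m]
    rw [if_pos (show B j from ⟨h1, h2⟩)]
  have h1 : ∀ j, φ T (z j) (m j) := by
    intro j
    simp only [m]
    split_ifs with hb
    · have := hxx' j
      simp only at this
      rwa [hz' j hb.1 hb.2] at this
    · exact (φ T).refl' _
  have h2 : ∀ j, φ T (m j) (z' j) := by
    intro j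
    simp only [m]
    split_ifs with hb
    · rw [hz' j hb.1 hb.2]
    · exact hxx' j
  have s1 := facet_move hφ hcl hψ hT2 hu hz hm1 h1
  have s2 := facet_move hφ hcl hψ hT2 hv hm2 hz' h2
  exact ψ.trans' s1 s2

end closed

theorem closed_eq_lev [Finite A] (hU : IsUpperSet U) (hφ : ∀ s t : L, φ s ≤ φ t ↔ s ≤ t)
    (hcl : ∀ θ : Setoid A, IsClosed φ θ → ∃ t : L, θ = φ t) {ψ : Setoid (XX φ U)}
    (hψ : IsClosed (lev φ U) ψ) : ∃ p, ψ = lev φ U p := by
  obtain ⟨T, hT1', hT2'⟩ := exists_least hφ hcl
    {p : A × A | ∃ q q', ψ q q' ∧ ∃ j, p = (pr q j, pr q' j)}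
  have hT1 : ∀ q q', ψ q q' → ∀ j, φ T (pr q j) (pr q' j) :=
    fun q q' h j => hT1' (pr q j, pr q' j) ⟨q, q', h, j, rfl⟩
  have hT2 : ∀ t : L, (∀ q q', ψ q q' → ∀ j, φ t (pr q j) (pr q' j)) → T ≤ t := by
    intro t ht
    refine hT2' t ?_
    rintro p ⟨q, q', h, j, rfl⟩
    exact ht q q' h j
  have hm := all_move hφ hcl hψ hT2
  by_cases hA : ∃ x, ψ none (some x)
  · obtain ⟨x, hx⟩ := hA
    have hTU : T ∈ U := by
      obtain ⟨z, u, hu, c, hz⟩ := x
      have hle : u ≤ T := by
        rw [← hφ]
        intro a b hab
        let j : Idx φ U := ⟨(φ u, c, a, b), ⟨u, hu, rfl⟩, hab⟩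
        have h3 := hT1 _ _ hx j
        change φ T a (z j) at h3
        rwa [hz j rfl rfl] at h3
      exact hU hle hu
    refine ⟨⟨(T, true), fun _ => hTU⟩, ?_⟩
    change ψ = levT T
    apply Setoid.ext
    intro q q'
    refine ⟨fun h => hT1 q q' h, fun h => ?_⟩
    rcases q with _ | y
    · rcases q' with _ | y'
      · exact ψ.refl' _
      · refine ψ.trans' hx (hm x y' (fun j => ?_))
        exact (φ T).trans' ((φ T).symm' (hT1 _ _ hx j)) (h j)
    · rcases q' with _ | y'
      · refine ψ.trans' ?_ (ψ.symm' hx)
        refine hm y x (fun j => ?_)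
        exact (φ T).trans' (h j) (hT1 _ _ hx j)
      · exact hm y y' h
  · refine ⟨⟨(T, false), by simp⟩, ?_⟩
    change ψ = levF T
    apply Setoid.ext
    intro q q'
    constructor
    · intro h
      rcases q with _ | y
      · rcases q' with _ | y'
        · exact Or.inl rfl
        · exact absurd ⟨y', h⟩ hA
      · rcases q' with _ | y'
        · exact absurd ⟨y, ψ.symm' h⟩ hA
        · exact Or.inr ⟨y, y', rfl, rfl, hT1 _ _ h⟩
    · rintro (rfl | ⟨x, x', rfl, rfl, h⟩)
      · exact ψ.refl' _
      · exact hm x x' h

section order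

theorem lev_le_iff [Nonempty A] (hφ : ∀ s t : L, φ s ≤ φ t ↔ s ≤ t) {u0 : L} (hu0 : u0 ∈ U)
    (p p' : {p : L × Bool // p.2 = true → p.1 ∈ U}) : lev φ U p ≤ lev φ U p' ↔ p ≤ p' := by
  classical
  obtain ⟨⟨t, b⟩, hp⟩ := p
  obtain ⟨⟨s, b'⟩, hp'⟩ := p'
  constructor
  · intro hle
    have hts : t ≤ s := by
      rw [← hφ]
      intro a a' haa'
      obtain ⟨y0⟩ := ‹Nonempty A›
      let i : Idx φ U := ⟨(φ u0, false, y0, y0), ⟨u0, hu0, rfl⟩, (φ u0).refl' _⟩
      have hz : OnFacet (apt : Idx φ U → A) (φ u0) true := fun j _ _ => rfl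
      have hi : ¬ (i.1.1 = φ u0 ∧ i.1.2.1 = true) := by simp [i]
      let e : A → X0 φ U := fun y => ⟨line apt i y, u0, hu0, true, line_onFacet hz hi y⟩
      have h1 : lev φ U ⟨(t, b), hp⟩ (some (e a)) (some (e a')) := by
        cases b with
        | false => exact Or.inr ⟨_, _, rfl, rfl, fun j => line_rel haa' j⟩
        | true => exact fun j => line_rel haa' j
      have h2 := hle h1
      cases b' with
      | false =>
        rcases h2 with h3 | ⟨x, x', h3, h4, h5⟩
        · have h6 := congrArg (fun q : XX φ U => pr q i) h3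
          simp only [pr, e, line_apply_self] at h6
          rw [h6]
        · have e1 := Option.some.inj h3
          have e2 := Option.some.inj h4
          subst e1 e2
          have := h5 i
          simpa only [e, line_apply_self] using this
      | true =>
        have := h2 i
        simpa only [pr, e, line_apply_self] using this
    have hbb' : b ≤ b' := by
      cases b with
      | false => exact Bool.false_le _
      | true =>
        cases b' with
        | true => exact le_rfl
        | false =>
          exfalso
          have htU : t ∈ U := hp rfl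
          let y : Idx φ U → A := fun j => if j.1.1 = φ t ∧ j.1.2.1 = false then apt j else wpt j
          have hy : OnFacet y (φ t) false := by
            intro j h1 h2
            simp only [y]
            rw [if_pos ⟨h1, h2⟩]
          have h1 : levT t (none : XX φ U) (some ⟨y, t, htU, false, hy⟩) := by
            intro j
            change φ t (wpt j) (y j)
            simp only [y]
            split_ifs with h2
            · have := j.2.2
              rw [h2.1] at this
              exact this
            · exact (φ t).refl' _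
          have h2 := hle h1
          rcases h2 with h3 | ⟨x, x', h3, _, _⟩
          · exact absurd h3 (by simp)
          · exact absurd h3 (by simp)
    exact ⟨hts, hbb'⟩
  · rintro ⟨h1, h2⟩
    have h1' : t ≤ s := h1
    have h2' : b ≤ b' := h2
    have hmono := (hφ t s).2 h1'
    intro q q' hq
    cases b with
    | false =>
      rcases hq with rfl | ⟨x, x', rfl, rfl, h⟩
      · exact (lev φ U ⟨(s, b'), hp'⟩).refl' _
      · cases b' with
        | false => exact Or.inr ⟨x, x', rfl, rfl, fun j => hmono (h j)⟩
        | true => exact fun j => hmono (h j)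
    | true =>
      cases b' with
      | false => exact absurd h2' (by decide)
      | true => exact fun j => hmono (hq j)

end order

end

/-- Doubling an up-set of a representable poset gives a representable poset. -/
theorem representable_up {L : Type u} [PartialOrder L] (U : Set L) (hU : IsUpperSet U)
    (h : Representable L) : Representable {p : L × Bool // p.2 = true → p.1 ∈ U} := by
  classical
  by_cases hne : U.Nonempty
  · obtain ⟨u0, hu0⟩ := hne
    obtain ⟨A, hfin, hA, φ, hφ, hcl⟩ := exists_levels h
    exact representable_of_levels (lev φ U) (lev_le_iff hφ hu0) (fun θ hθ => closed_eq_lev hU hφ hcl hθ)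
  · have hemp : U = ∅ := Set.not_nonempty_iff_eq_empty.mp hne
    refine Representable.of_orderIso ?_ h
    refine RelIso.ofSurjective (OrderEmbedding.ofMapLEIff (fun p => p.1.1) ?_) ?_
    · rintro ⟨⟨t, b⟩, hp⟩ ⟨⟨s, b'⟩, hp'⟩
      cases b with
      | true => exact absurd (hp rfl) (by simp [hemp])
      | false =>
        cases b' with
        | true => exact absurd (hp' rfl) (by simp [hemp])
        | false =>
          constructor
          · intro h1
            exact ⟨h1, le_rfl⟩
          · intro h1
            exact h1.1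
    · intro t
      exact ⟨⟨(t, false), by simp⟩, rfl⟩

end Vale.Agent.P183.Up
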