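import Vale.Agent.P183.Lift.FromRep

/-!
# Levels of a representation

A representation of a partial order `P` on a finite set `X` is an order embedding `lev` of `P` into
the setoids of `X` such that every setoid closed under all maps preserving all levels is a level.
-/

namespace Vale.Agent.P183.Up

universe u

/-- A self map preserving every level. -/
def IsMor {P : Type u} {X : Type} (lev : P → Setoid X) (f : X → X) : Prop :=
  ∀ (t : P) (x y : X), lev t x y → lev t (f x) (f y)

/-- A setoid closed under all maps preserving every level. -/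
def IsClosed {P : Type u} {X : Type} (lev : P → Setoid X) (θ : Setoid X) : Prop :=
  ∀ f : X → X, IsMor lev f → ∀ x y, θ x y → θ (f x) (f y)

/-- Levels with the closure property give a representation. -/
theorem representable_of_levels {P : Type u} [PartialOrder P] {X : Type} [Finite X] [Nonempty X]
    (lev : P → Setoid X) (h1 : ∀ s t : P, lev s ≤ lev t ↔ s ≤ t)
    (h2 : ∀ θ : Setoid X, IsClosed lev θ → ∃ t : P, θ = lev t) : Representable P := by
  classical
  let M := {f : X → X // IsMor lev f}
  have hM : Finite M := by infer_instance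
  let e : M ≃ Fin (Nat.card M) := Finite.equivFin M
  let ar : Fin (Nat.card M) → ℕ := fun _ => 1
  let op : ∀ i, (Fin (ar i) → X) → X := fun i x => (e.symm i).1 (x ⟨0, Nat.one_pos⟩)
  have hiff : ∀ θ : Setoid X, IsCongruence ar op θ ↔ IsClosed lev θ := by
    intro θ
    constructor
    · intro h f hf x y hxy
      have := h (e ⟨f, hf⟩) (fun _ => x) (fun _ => y) (fun _ => hxy)
      simpa [op] using this
    · intro h i x y hxy
      exact h _ (e.symm i).2 _ _ (hxy _)
  refine ⟨X, inferInstance, inferInstance, Nat.card M, ar, op, ⟨?_⟩⟩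
  let f : P → {θ : Setoid X // IsCongruence ar op θ} :=
    fun t => ⟨lev t, (hiff _).2 (fun f hf x y hxy => hf t x y hxy)⟩
  have hf : ∀ s t, f s ≤ f t ↔ s ≤ t := fun s t => h1 s t
  have hs : Function.Surjective f := by
    rintro ⟨θ, hθ⟩
    obtain ⟨τ, rfl⟩ := h2 θ ((hiff θ).1 hθ)
    exact ⟨τ, rfl⟩
  exact RelIso.ofSurjective (OrderEmbedding.ofMapLEIff f hf) hs

/-- The levels of a representation, extracted from an algebra. -/
theorem exists_levels {P : Type u} [PartialOrder P] (h : Representable P) :
    ∃ (A : Type) (_ : Finite A) (_ : Nonempty A) (φ : P → Setoid A),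
      (∀ s t : P, φ s ≤ φ t ↔ s ≤ t) ∧ ∀ θ : Setoid A, IsClosed φ θ → ∃ t : P, θ = φ t := by
  obtain ⟨A, hfin, hne, n, ar, op, ⟨e⟩⟩ := h
  refine ⟨A, hfin, hne, fun t => (e t).1, fun s t => e.le_iff_le, fun θ hθ => ?_⟩
  have hc : IsCongruence ar op θ := by
    refine Lift.cong_of_closed (fun f hf => ?_)
    refine hθ f (fun t x y hxy => hf (e t).1 (e t).2 x y hxy)
  obtain ⟨t, ht⟩ := e.surjective ⟨θ, hc⟩
  exact ⟨t, (congrArg Subtype.val ht).symm⟩

/-- Representability passes along order isomorphisms. -/
theorem Representable.of_orderIso {P Q : Type u} [PartialOrder P] [PartialOrder Q] (e : P ≃o Q)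
    (h : Representable Q) : Representable P := by
  obtain ⟨A, hfin, hne, n, ar, op, ⟨f⟩⟩ := h
  exact ⟨A, hfin, hne, n, ar, op, ⟨e.trans f⟩⟩


end Vale.Agent.P183.Up
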